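import Vale.Agent.P132.Main
import Vale.Agent.P132.Pack
import Vale.Agent.P132.Win
import Vale.Agent.P132.Eng
import Vale.Agent.P132.Loc
import Vale.Agent.P132.Link
import Vale.Agent.P132.Off
import Vale.Agent.P132.Two
import Vale.Agent.P132.Gns
import Vale.Agent.P132.Cov
import Vale.Agent.P132.Tr
import Vale.Agent.P132.Iso
import Vale.Agent.P096.Inf

open Vale.Agent.P132

universe u

theorem Vale.Agent.Results.P132.Bicentralizer.result {H : Type u} [NormedAddCommGroup H]
    [InnerProductSpace ℂ H] [CompleteSpace H] (M : VonNeumannAlgebra H) (hM : IsFactor M)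
    (hS : ∀ t : ℝ, 0 ≤ t → (t : ℂ) ∈ Sinv M) (φ : (H →L[ℂ] H) → ℂ) (hφ : FNS M φ) :
    Bic M φ = {a | ∃ c : ℂ, a = c • 1} :=
  main gnsStmt pkStmt (isoStmt covStmt infStmt trStmt gnsStmt pkStmt (linkStmt gwStmt))
    (linkStmt gwStmt) (offStmt gwStmt avgStmt Vale.Agent.P096.meanStmt)
    (oneStmt gwStmt avgStmt engStmt locStmt) (twoStmt avgStmt Vale.Agent.P096.meanStmt engStmt)
    M hM (fun t ht => hS t ht.le) φ hφ
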